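import Mathlib
open Finset MulOpposite
open scoped Pointwise

namespace Vale.Agent.Lib.P038

variable {G : Type*} [Group G] [DecidableEq G]

theorem kemperman_aux (C : Finset G) (m : ℕ) : ∀ (A B : Finset G),
    (2 * C.card - (A.card + B.card)) * (C.card + 1) + A.card = m →
    1 ∈ A → 1 ∈ B → (∀ a ∈ A, ∀ b ∈ B, a * b = 1 → a = 1) → A * B ⊆ C →
    A.card + B.card ≤ C.card + 1 := by
  induction m using Nat.strong_induction_on with
  | _ m ih =>
    intro A B hm h1A h1B huniq hC
    have sub_of : ∀ (X Y : Finset G), 1 ∈ X → 1 ∈ Y → X * Y ⊆ C → X ⊆ C ∧ Y ⊆ C := by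
      intro X Y h1X h1Y hXY
      exact ⟨fun a ha => hXY (by simpa using mul_mem_mul ha h1Y),
        fun b hb => hXY (by simpa using mul_mem_mul h1X hb)⟩
    obtain ⟨hAC, hBC⟩ := sub_of A B h1A h1B hC
    by_cases hAB : ∃ g, g ∈ A ∧ g ∈ B ∧ g ≠ 1
    · obtain ⟨g, hgA, hgB, hg1⟩ := hAB
      have hginvA : g⁻¹ ∉ A := fun h => hg1 (by
        have := huniq g⁻¹ h g hgB (by simp)
        simpa using this)
      have hginvB : g⁻¹ ∉ B := fun h => hg1 (huniq g hgA g⁻¹ h (by simp))
      -- the two transforms
      have memA' : ∀ x, x ∈ op g • A ↔ x * g⁻¹ ∈ A := by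
        intro x
        rw [mem_smul_finset]
        constructor
        · rintro ⟨y, hy, rfl⟩; simpa using hy
        · intro h; exact ⟨x * g⁻¹, h, by simp⟩
      have memA'' : ∀ x, x ∈ op g⁻¹ • A ↔ x * g ∈ A := by
        intro x
        rw [mem_smul_finset]
        constructor
        · rintro ⟨y, hy, rfl⟩; simpa using hy
        · intro h; exact ⟨x * g, h, by simp⟩
      have memB' : ∀ x, x ∈ g⁻¹ • B ↔ g * x ∈ B := by
        intro x
        rw [mem_smul_finset]
        constructor
        · rintro ⟨y, hy, rfl⟩; simpa using hy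
        · intro h; exact ⟨g * x, h, by simp⟩
      have memB'' : ∀ x, x ∈ g • B ↔ g⁻¹ * x ∈ B := by
        intro x
        rw [mem_smul_finset]
        constructor
        · rintro ⟨y, hy, rfl⟩; simpa using hy
        · intro h; exact ⟨g⁻¹ * x, h, by simp⟩
      -- cardinalities
      have cA : (A ∩ op g⁻¹ • A).card + (A ∪ op g • A).card = 2 * A.card := by
        have h1 : (A ∩ op g⁻¹ • A).card = (A ∩ op g • A).card := by
          rw [← card_smul_finset (op g) (A ∩ op g⁻¹ • A), smul_finset_inter, inter_comm]
          congr 2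
          ext x
          simp
        rw [h1, card_inter_add_card_union, card_smul_finset, two_mul]
      have cB : (B ∪ g • B).card + (B ∩ g⁻¹ • B).card = 2 * B.card := by
        have h1 : (B ∩ g⁻¹ • B).card = (B ∩ g • B).card := by
          rw [← card_smul_finset g (B ∩ g⁻¹ • B), smul_finset_inter, inter_comm]
          congr 2
          ext x
          simp
        rw [h1, card_union_add_card_inter, card_smul_finset, two_mul]
      -- validity of the first transform
      have v1A : (1 : G) ∈ A ∪ op g • A := mem_union_left _ h1A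
      have v1B : (1 : G) ∈ B ∩ g⁻¹ • B := mem_inter.2 ⟨h1B, (memB' 1).2 (by simpa using hgB)⟩
      have v1u : ∀ a ∈ A ∪ op g • A, ∀ b ∈ B ∩ g⁻¹ • B, a * b = 1 → a = 1 := by
        intro a ha b hb hab
        rw [mem_inter] at hb
        rcases mem_union.1 ha with ha | ha
        · exact huniq a ha b hb.1 hab
        · exfalso
          have h1 := (memA' a).1 ha
          have h2 := (memB' b).1 hb.2
          have h3 : a * g⁻¹ = 1 := huniq _ h1 _ h2 (by group; exact hab)
          have h4 : a = g := by
            have := congrArg (· * g) h3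
            simpa using this
          have h5 : b = g⁻¹ := by
            rw [h4] at hab
            exact eq_inv_of_mul_eq_one_right hab
          exact hginvB (h5 ▸ hb.1)
      have v1C : (A ∪ op g • A) * (B ∩ g⁻¹ • B) ⊆ C := by
        intro x hx
        obtain ⟨a, ha, b, hb, rfl⟩ := mem_mul.1 hx
        rw [mem_inter] at hb
        rcases mem_union.1 ha with ha | ha
        · exact hC (mul_mem_mul ha hb.1)
        · have h1 := (memA' a).1 ha
          have h2 := (memB' b).1 hb.2
          have : a * b = (a * g⁻¹) * (g * b) := by group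
          rw [this]
          exact hC (mul_mem_mul h1 h2)
      -- validity of the second transform
      have v2A : (1 : G) ∈ A ∩ op g⁻¹ • A := mem_inter.2 ⟨h1A, (memA'' 1).2 (by simpa using hgA)⟩
      have v2B : (1 : G) ∈ B ∪ g • B := mem_union_left _ h1B
      have v2u : ∀ a ∈ A ∩ op g⁻¹ • A, ∀ b ∈ B ∪ g • B, a * b = 1 → a = 1 := by
        intro a ha b hb hab
        rw [mem_inter] at ha
        rcases mem_union.1 hb with hb | hb
        · exact huniq a ha.1 b hb hab
        · exfalso
          have h1 := (memA'' a).1 ha.2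
          have h2 := (memB'' b).1 hb
          have h3 : a * g = 1 := huniq _ h1 _ h2 (by group; exact hab)
          have h4 : a = g⁻¹ := eq_inv_of_mul_eq_one_left h3
          exact hginvA (h4 ▸ ha.1)
      have v2C : (A ∩ op g⁻¹ • A) * (B ∪ g • B) ⊆ C := by
        intro x hx
        obtain ⟨a, ha, b, hb, rfl⟩ := mem_mul.1 hx
        rw [mem_inter] at ha
        rcases mem_union.1 hb with hb | hb
        · exact hC (mul_mem_mul ha.1 hb)
        · have h1 := (memA'' a).1 ha.2
          have h2 := (memB'' b).1 hb
          have : a * b = (a * g) * (g⁻¹ * b) := by group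
          rw [this]
          exact hC (mul_mem_mul h1 h2)
      have hlt : (A ∩ op g⁻¹ • A).card < A.card := by
        apply card_lt_card
        refine ⟨inter_subset_left, fun h => ?_⟩
        have hsub : A ⊆ op g⁻¹ • A := fun x hx => (mem_inter.1 (h hx)).2
        have heq : A = op g⁻¹ • A := eq_of_subset_of_card_le hsub (by rw [card_smul_finset])
        apply hginvA
        rw [heq, memA'']
        simpa using h1A
      obtain ⟨s1A, s1B⟩ := sub_of _ _ v1A v1B v1C
      obtain ⟨s2A, s2B⟩ := sub_of _ _ v2A v2B v2C
      have k1A := card_le_card s1A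
      have k1B := card_le_card s1B
      have k2A := card_le_card s2A
      have k2B := card_le_card s2B
      have kA := card_le_card hAC
      have kB := card_le_card hBC
      by_cases hcase : A.card + B.card < (A ∪ op g • A).card + (B ∩ g⁻¹ • B).card
      · have hmeas : (2 * C.card - ((A ∪ op g • A).card + (B ∩ g⁻¹ • B).card)) * (C.card + 1)
            + (A ∪ op g • A).card < m := by
          rw [← hm]
          obtain ⟨t, ht⟩ : ∃ t, 2 * C.card - (A.card + B.card)
              = (2 * C.card - ((A ∪ op g • A).card + (B ∩ g⁻¹ • B).card)) + 1 + t :=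
            ⟨2 * C.card - (A.card + B.card)
              - ((2 * C.card - ((A ∪ op g • A).card + (B ∩ g⁻¹ • B).card)) + 1), by omega⟩
          rw [ht]
          nlinarith
        have := ih _ hmeas _ _ rfl v1A v1B v1u v1C
        omega
      · have hmeas : (2 * C.card - ((A ∩ op g⁻¹ • A).card + (B ∪ g • B).card)) * (C.card + 1)
            + (A ∩ op g⁻¹ • A).card < m := by
          rw [← hm]
          have h1 : 2 * C.card - ((A ∩ op g⁻¹ • A).card + (B ∪ g • B).card)
              ≤ 2 * C.card - (A.card + B.card) := by omega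
          have h2 := Nat.mul_le_mul_right (C.card + 1) h1
          omega
        have := ih _ hmeas _ _ rfl v2A v2B v2u v2C
        omega
    · -- A ∩ B = {1}
      have h1 : A ∩ B = {1} := by
        ext x
        simp only [mem_inter, mem_singleton]
        constructor
        · rintro ⟨hxA, hxB⟩
          by_contra hx
          exact hAB ⟨x, hxA, hxB, hx⟩
        · rintro rfl; exact ⟨h1A, h1B⟩
      have h2 : A ∪ B ⊆ C := union_subset hAC hBC
      calc A.card + B.card = (A ∪ B).card + (A ∩ B).card := (card_union_add_card_inter A B).symm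
        _ ≤ C.card + 1 := by
          rw [h1]; simpa using card_le_card h2

/-- Kemperman's theorem: if `1 ∈ A ∩ B` and `1` has the unique factorisation `1 = 1 * 1` in
`A * B`, then `|A| + |B| ≤ |A * B| + 1`. -/
theorem kemperman (A B : Finset G) (h1A : 1 ∈ A) (h1B : 1 ∈ B)
    (huniq : ∀ a ∈ A, ∀ b ∈ B, a * b = 1 → a = 1) : A.card + B.card ≤ (A * B).card + 1 :=
  kemperman_aux (A * B) _ A B rfl h1A h1B huniq Subset.rfl

end Vale.Agent.Lib.P038
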